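import Vale.Agent.Lib.P170.Final

/-!
# P170: random k-SAT has a limiting threshold for every k ≥ 3
-/

namespace Vale.Agent.Results.P170.SatisfiabilityThreshold

open Finset Filter Topology

/-- Proper `k`-clauses over the variables `0, …, n - 1`: a literal is a pair (variable, sign), a
proper `k`-clause is a set of `k` literals on distinct variables (there are `2 ^ k * n.choose k` of
them). -/
def ProperClause (n k : ℕ) : Type :=
  {C : Finset (Fin n × Bool) // C.card = k ∧ ∀ l ∈ C, ∀ l' ∈ C, l.1 = l'.1 → l = l'}

noncomputable instance (n k : ℕ) : Fintype (ProperClause n k) := by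
  unfold ProperClause; infer_instance

/-- The formula `F 0 ∧ … ∧ F (m-1)` is satisfiable: some assignment makes a literal of every clause
true. -/
def Satisfiable {n k m : ℕ} (F : Fin m → ProperClause n k) : Prop :=
  ∃ σ : Fin n → Bool, ∀ i, ∃ l ∈ (F i).1, σ l.1 = l.2

open Classical in
/-- The probability that `m` independent uniformly distributed proper `k`-clauses over `n` variables
are simultaneously satisfiable: the proportion of satisfiable formulas among all sequences of `m`
proper `k`-clauses. -/
noncomputable def satProb (k n m : ℕ) : ℝ :=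
  ((univ.filter fun F : Fin m → ProperClause n k => Satisfiable F).card : ℝ) /
    (Fintype.card (Fin m → ProperClause n k) : ℝ)

/-- Random `k`-SAT has the limiting threshold `α`. -/
def IsLimitingThreshold (k : ℕ) (α : ℝ) : Prop :=
  (∀ c : ℝ, 0 ≤ c → c < α → Tendsto (fun n : ℕ => satProb k n ⌊c * n⌋₊) atTop (𝓝 1)) ∧
  (∀ c : ℝ, α < c → Tendsto (fun n : ℕ => satProb k n ⌊c * n⌋₊) atTop (𝓝 0))

theorem result : ∀ k : ℕ, 3 ≤ k → ∃ α : ℝ, 0 < α ∧ IsLimitingThreshold k α := by
  intro k hk
  exact Vale.Agent.P170.threshold_P k hk

end Vale.Agent.Results.P170.SatisfiabilityThreshold
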